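import Mathlib

/-!
Probability measure preserving actions, graphings and cost.
-/

open MeasureTheory
open scoped ENNReal

namespace Vale.Agent.P189

/-- A p.m.p. action, written on the right, of a group on a standard probability space. -/
structure PmpAction (Γ : Type) [Group Γ] where
  X : Type
  [ms : MeasurableSpace X]
  [sb : StandardBorelSpace X]
  μ : Measure X
  [prob : IsProbabilityMeasure μ]
  act : X → Γ → X
  act_one : ∀ x, act x 1 = x
  act_mul : ∀ x g h, act (act x g) h = act x (g * h)
  preserving : ∀ g, MeasurePreserving (fun x => act x g) μ μ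

attribute [instance] PmpAction.ms PmpAction.sb PmpAction.prob

variable {Γ : Type} [Group Γ]

/-- Every nontrivial element fixes a null set of points. -/
def PmpAction.EssFree (α : PmpAction Γ) : Prop :=
  ∀ g : Γ, g ≠ 1 → α.μ {x | α.act x g = x} = 0

/-- A graphing of the orbit equivalence relation: a countable family of measure preserving Borel
bijections `map i : dom i → cod i` between Borel sets, moving points inside their orbits. -/
structure Graphing (α : PmpAction Γ) where
  ι : Type
  countable : Countable ι
  dom : ι → Set α.X
  cod : ι → Set α.X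
  map : ι → α.X → α.X
  measurableSet_dom : ∀ i, MeasurableSet (dom i)
  measurableSet_cod : ∀ i, MeasurableSet (cod i)
  bijOn : ∀ i, Set.BijOn (map i) (dom i) (cod i)
  preserving : ∀ i, MeasurePreserving (map i) (α.μ.restrict (dom i)) (α.μ.restrict (cod i))
  mem_orbit : ∀ i, ∀ x ∈ dom i, ∃ g : Γ, map i x = α.act x g

/-- One application of some `map i` or of its inverse leads from `x` to `y`. -/
def Graphing.Step {α : PmpAction Γ} (Φ : Graphing α) (x y : α.X) : Prop :=
  ∃ i, (x ∈ Φ.dom i ∧ Φ.map i x = y) ∨ (y ∈ Φ.dom i ∧ Φ.map i y = x)

/-- For almost every `x`, every point of the orbit of `x` is reached from `x` by a finite chain. -/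
def Graphing.Generates {α : PmpAction Γ} (Φ : Graphing α) : Prop :=
  ∀ᵐ x ∂α.μ, ∀ g : Γ, Relation.ReflTransGen Φ.Step x (α.act x g)

/-- The cost of a graphing. -/
noncomputable def Graphing.total {α : PmpAction Γ} (Φ : Graphing α) : ℝ≥0∞ :=
  ∑' i, α.μ (Φ.dom i)

/-- The cost of an action: the infimum of the costs of the generating graphings. -/
noncomputable def PmpAction.cost (α : PmpAction Γ) : ℝ≥0∞ :=
  ⨅ (Φ : Graphing α) (_ : Φ.Generates), Φ.total

end Vale.Agent.P189
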